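import Mathlib

/-!
# P254, two-plane-symmetric bodies: the quadratic profile inequality (QUAD)

For a quadratic section-area profile `a z = x (1-z)^2 + 2 m z (1-z) + y z^2` on `[0,1]` with
nonnegative Bernstein coefficients `x, m, y`, with mass `V`, mean `zbar` and variance `sig^2`
of the density `a / V`, one has `a(zbar)^2 * sig^2 ≤ (9/80) V^2`, with equality for
`a = 2 m z (1-z)` (the tetrahedron).  This file proves the polynomial core.
-/

namespace Vale.Agent.Lib.P254.T2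

/-- Normal form of (QUAD): with `x + m + y = 1`, `s = x + y`, `q = (x - y)^2`, the numbers
`N = 16 a(zbar) = 8 - 4 s + (2 + 3 s) q` and `D = 80 sig^2 = 4 + 4 s - 5 q` satisfy
`N^2 D ≤ 256`. -/
theorem quad_profile (s q : ℝ) (hs0 : 0 ≤ s) (hs1 : s ≤ 1) (hq : 0 ≤ q) :
    (8 - 4 * s + (2 + 3 * s) * q) ^ 2 * (4 + 4 * s - 5 * q) ≤ 256 := by
  rcases le_or_gt s (7 / 20) with h | h
  · -- all four coefficients of the cubic in `q` are nonnegative
    have hid : 256 - (8 - 4 * s + (2 + 3 * s) * q) ^ 2 * (4 + 4 * s - 5 * q)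
        = 64 * s ^ 2 * (3 - s) + 48 * (2 - s) * (-(2 * s ^ 2 + 5 * s - 2)) * q
          + 12 * (2 + 3 * s) * (s + 6) * (1 - s) * q ^ 2 + 5 * (2 + 3 * s) ^ 2 * q ^ 3 := by
      ring
    have h1 : 0 ≤ -(2 * s ^ 2 + 5 * s - 2) := by nlinarith
    have t1 : 0 ≤ 64 * s ^ 2 * (3 - s) := by
      have : 0 ≤ 3 - s := by linarith
      positivity
    have t2 : 0 ≤ 48 * (2 - s) * (-(2 * s ^ 2 + 5 * s - 2)) * q := by
      have : 0 ≤ 2 - s := by linarith
      positivity
    have t3 : 0 ≤ 12 * (2 + 3 * s) * (s + 6) * (1 - s) * q ^ 2 := by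
      have : 0 ≤ 1 - s := by linarith
      positivity
    have t4 : 0 ≤ 5 * (2 + 3 * s) ^ 2 * q ^ 3 := by positivity
    linarith
  · rcases le_or_gt 0 (4 + 4 * s - 5 * q) with hD | hD
    · -- the AM-GM identity
      have hid : 1350 * (2 + 3 * s) *
            (256 - (8 - 4 * s + (2 + 3 * s) * q) ^ 2 * (4 + 4 * s - 5 * q))
          = 13824 * (1 - s) * (s ^ 5 + s ^ 4 + 13 * s ^ 3 + 13 * s ^ 2 + 61 * s - 14)
            + (5 * (8 - 4 * s + (2 + 3 * s) * q) - 2 * (2 + 3 * s) * (4 + 4 * s - 5 * q)) ^ 2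
              * (40 * (8 - 4 * s + (2 + 3 * s) * q) + 2 * (2 + 3 * s) * (4 + 4 * s - 5 * q)) := by
        ring
      have hk : 0 ≤ s ^ 5 + s ^ 4 + 13 * s ^ 3 + 13 * s ^ 2 + 61 * s - 14 := by
        have : 0 ≤ s ^ 5 + s ^ 4 + 13 * s ^ 3 + 13 * s ^ 2 := by positivity
        linarith
      have hN : 0 ≤ 8 - 4 * s + (2 + 3 * s) * q := by
        have : 0 ≤ (2 + 3 * s) * q := by positivity
        linarith
      have hB : 0 < 2 + 3 * s := by linarith
      have t1 : 0 ≤ 13824 * (1 - s) * (s ^ 5 + s ^ 4 + 13 * s ^ 3 + 13 * s ^ 2 + 61 * s - 14) := by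
        have : 0 ≤ 1 - s := by linarith
        positivity
      have t2 : 0 ≤ (5 * (8 - 4 * s + (2 + 3 * s) * q) - 2 * (2 + 3 * s) * (4 + 4 * s - 5 * q)) ^ 2
              * (40 * (8 - 4 * s + (2 + 3 * s) * q) + 2 * (2 + 3 * s) * (4 + 4 * s - 5 * q)) := by
        have : 0 ≤ 2 * (2 + 3 * s) * (4 + 4 * s - 5 * q) := by positivity
        positivity
      have hpos : 0 ≤ 1350 * (2 + 3 * s) *
            (256 - (8 - 4 * s + (2 + 3 * s) * q) ^ 2 * (4 + 4 * s - 5 * q)) := by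
        rw [hid]; linarith
      have hB' : 0 < 1350 * (2 + 3 * s) := by linarith
      have := nonneg_of_mul_nonneg_right hpos hB'
      linarith
    · have : (8 - 4 * s + (2 + 3 * s) * q) ^ 2 * (4 + 4 * s - 5 * q) ≤ 0 :=
        mul_nonpos_of_nonneg_of_nonpos (sq_nonneg _) hD.le
      linarith

/-- Homogeneous form of (QUAD) in the Bernstein coefficients `x, m, y ≥ 0` of the profile
`a z = x (1-z)^2 + 2 m z (1-z) + y z^2`: with `S = x + m + y = 3 V`, `u = 3x + 2m + y`,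
`w = x + 2m + 3y` (so `zbar = w / (4 S)`), `16 S^2 a(zbar) = x u^2 + 2 m u w + y w^2` and
`80 S^2 sig^2 = 8 (x + 3m + 6y) S - 5 w^2`. -/
theorem quad_bernstein (x m y : ℝ) (hx : 0 ≤ x) (hm : 0 ≤ m) (hy : 0 ≤ y) :
    (x * (3 * x + 2 * m + y) ^ 2 + 2 * m * (3 * x + 2 * m + y) * (x + 2 * m + 3 * y)
        + y * (x + 2 * m + 3 * y) ^ 2) ^ 2
      * (8 * (x + 3 * m + 6 * y) * (x + m + y) - 5 * (x + 2 * m + 3 * y) ^ 2)
      ≤ 256 * (x + m + y) ^ 8 := by
  rcases eq_or_lt_of_le (add_nonneg (add_nonneg hx hm) hy) with hS | hS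
  · have hx0 : x = 0 := by linarith
    have hm0 : m = 0 := by linarith
    have hy0 : y = 0 := by linarith
    subst hx0 hm0 hy0
    norm_num
  · have hSne : x + m + y ≠ 0 := ne_of_gt hS
    have h1 : 0 ≤ (x + y) / (x + m + y) := div_nonneg (add_nonneg hx hy) hS.le
    have h2 : (x + y) / (x + m + y) ≤ 1 := by
      rw [div_le_one hS]; linarith
    have h3 : 0 ≤ ((x - y) / (x + m + y)) ^ 2 := sq_nonneg _
    have key := quad_profile ((x + y) / (x + m + y)) (((x - y) / (x + m + y)) ^ 2) h1 h2 h3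
    have e1 : x * (3 * x + 2 * m + y) ^ 2 + 2 * m * (3 * x + 2 * m + y) * (x + 2 * m + 3 * y)
        + y * (x + 2 * m + 3 * y) ^ 2
        = (x + m + y) ^ 3 * (8 - 4 * ((x + y) / (x + m + y))
            + (2 + 3 * ((x + y) / (x + m + y))) * ((x - y) / (x + m + y)) ^ 2) := by
      field_simp
      ring
    have e2 : 8 * (x + 3 * m + 6 * y) * (x + m + y) - 5 * (x + 2 * m + 3 * y) ^ 2
        = (x + m + y) ^ 2 * (4 + 4 * ((x + y) / (x + m + y))
            - 5 * ((x - y) / (x + m + y)) ^ 2) := by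
      field_simp
      ring
    rw [e1, e2]
    have hS8 : 0 ≤ (x + m + y) ^ 8 := by positivity
    calc ((x + m + y) ^ 3 * (8 - 4 * ((x + y) / (x + m + y))
            + (2 + 3 * ((x + y) / (x + m + y))) * ((x - y) / (x + m + y)) ^ 2)) ^ 2
          * ((x + m + y) ^ 2 * (4 + 4 * ((x + y) / (x + m + y))
            - 5 * ((x - y) / (x + m + y)) ^ 2))
        = (x + m + y) ^ 8 * ((8 - 4 * ((x + y) / (x + m + y))
            + (2 + 3 * ((x + y) / (x + m + y))) * ((x - y) / (x + m + y)) ^ 2) ^ 2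
          * (4 + 4 * ((x + y) / (x + m + y)) - 5 * ((x - y) / (x + m + y)) ^ 2)) := by ring
      _ ≤ (x + m + y) ^ 8 * 256 := mul_le_mul_of_nonneg_left key hS8
      _ = 256 * (x + m + y) ^ 8 := by ring

end Vale.Agent.Lib.P254.T2
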